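import Vale.Agent.P266.Abstract
import Vale.Agent.P266.Val
import Vale.Agent.P266.Field

namespace Vale.Agent.Results.P266.NotRegular

open Vale.Agent.P266

theorem result : ∃ (A : Type) (_ : CommRing A) (_ : IsDomain A) (_ : Algebra ℂ A),
    Algebra.FiniteType ℂ A ∧ Module.Free A (Derivation ℂ A A) ∧
      Module.Projective A (Derivation ℂ A A) ∧ ¬ IsRegularRing A := by
  obtain ⟨K, _, _, ⟨G⟩⟩ := exists_setup
  obtain ⟨A, hfg, hfree, hreg⟩ := abstract_main G.w G.u G.alg (G.v 0) (G.v 1) G.wedge_v_ne G.A0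
    G.A0_fg G.A0_alg G.cases G.Vp G.sing_p
  exact ⟨A, inferInstance, inferInstance, inferInstance, (Subalgebra.fg_iff_finiteType A).1 hfg,
    hfree, Module.Projective.of_free, hreg⟩

end Vale.Agent.Results.P266.NotRegular
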